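import Vale.Agent.P198.G.Kit

/-!
# P198 G/Comb  (helper names start with gComb_)

`near`: `m3` gives `q ^ gp x y ≤ C * max κ 1 * q ^ k`, `pow_cmp`, unfold `gp`, `omega` (with `wn.mul`, `wn.inv`).
`step`: `gp (x * s) x ≥ ν x - R`, second half of `m3`, `κ = C / q ^ R`.
`count`: if `x₀` is in the set then `x ↦ x₀⁻¹ * x` maps it injectively into `B R` (`near` with `2 κ`, `l = 0`).
`cone`: `B (j + 1) ⊆ image of B 1 ×ˢ B j` under multiplication (`wn.geo`), `D = max 2 (B 1).card`.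
For `t ≤ ν y` there is `a` with `ν a = t`, `ν (a⁻¹ * y) = ν y - t` (induction on `t`, `wn.geo`); then `gp a y = t`, so by `m3` twice
`dist (π a) (π g) ≤ 2 C q ^ t`; `count`.  For `j < t` the set is empty (`gp y g ≤ ν y`).
`asym`: first half of `m2 g x (π x)`; `gp x g⁻¹ ≤ ν g`, `Pp g⁻¹ _ ≥ q ^ ν g`, `Pp x (π x) = q ^ ν x`; so the distance is at most `C q ^ ν x / q ^ ν g`.
-/

namespace Vale.Agent.P198
open Set Metric Filter Topology MeasureTheory
variable {G Z : Type} [Group G] [MetricSpace Z] [CompactSpace Z] [MulAction G Z]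
  [ContinuousConstSMul G Z]

theorem gComb_pow (X : GP G Z) {a b : ℕ} (h : a ≤ b) : X.q ^ b ≤ X.q ^ a :=
  pow_le_pow_of_le_one X.q_pos.le X.q_lt.le h

theorem gComb_dist (X : GP G Z) (x y : G) {t : ℕ} (h : t ≤ gp X.ν x y) :
    dist (X.π x) (X.π y) ≤ X.C * X.q ^ t :=
  (le_max_left _ _).trans ((X.m3 x y).2.trans
    (mul_le_mul_of_nonneg_left (gComb_pow X h) X.C_pos.le))

theorem gComb_split (X : GP G Z) (y : G) (t : ℕ) (h : t ≤ X.ν y) :
    ∃ a, X.ν a = t ∧ X.ν (a⁻¹ * y) = X.ν y - t := by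
  induction t with
  | zero => exact ⟨1, X.nu_one, by simp⟩
  | succ t ih =>
    obtain ⟨a, h1, h2⟩ := ih (by omega)
    obtain ⟨b, h3, h4⟩ := X.wn.geo (a⁻¹ * y) (X.ν y - (t + 1)) (by omega)
    rw [← mul_assoc, ← mul_inv_rev] at h4
    have h5 := X.wn.mul a b
    have h6 := X.wn.mul (a * b) ((a * b)⁻¹ * y)
    rw [mul_inv_cancel_left] at h6
    exact ⟨a * b, by omega, h4⟩

theorem GP.near (X : GP G Z) (κ : ℝ) (l : ℕ) : ∃ R : ℕ, ∀ (k : ℕ) (x y : G), k ≤ X.ν x →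
    X.ν x ≤ k + l → k ≤ X.ν y → X.ν y ≤ k + l → dist (X.π x) (X.π y) ≤ κ * X.q ^ k →
      X.ν (x⁻¹ * y) ≤ R := by
  obtain ⟨m, hm⟩ := X.pow_cmp (X.C * max κ 1)
  refine ⟨2 * m + 2 * l, fun k x y h1 h2 h3 h4 h5 => ?_⟩
  have hk := (pow_pos X.q_pos k).le
  have h6 : X.q ^ k ≤ max κ 1 * X.q ^ k := le_mul_of_one_le_left hk (le_max_right _ _)
  have h7 := hm (gp X.ν x y) k ((X.m3 x y).1.trans (by
    rw [mul_assoc]
    exact mul_le_mul_of_nonneg_left (max_le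
      (h5.trans (mul_le_mul_of_nonneg_right (le_max_left _ _) hk))
      (max_le ((gComb_pow X h1).trans h6) ((gComb_pow X h3).trans h6))) X.C_pos.le))
  have h8 := X.wn.mul x⁻¹ y
  rw [X.wn.inv] at h8
  unfold gp at h7
  omega

theorem GP.step (X : GP G Z) (R : ℕ) : ∃ κ > 0, ∀ x s : G, X.ν s ≤ R →
    dist (X.π (x * s)) (X.π x) ≤ κ * X.q ^ X.ν x := by
  have hR := pow_pos X.q_pos R
  refine ⟨X.C / X.q ^ R, div_pos X.C_pos hR, fun x s hs => ?_⟩
  have h1 := X.wn.mul (x * s) s⁻¹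
  rw [mul_inv_cancel_right, X.wn.inv] at h1
  have h2 : X.ν ((x * s)⁻¹ * x) = X.ν s := by rw [mul_inv_rev, inv_mul_cancel_right, X.wn.inv]
  have h3 : X.ν x ≤ gp X.ν (x * s) x + R := by
    unfold gp
    omega
  refine (gComb_dist X _ _ le_rfl).trans ?_
  rw [div_mul_eq_mul_div, le_div_iff₀ hR, mul_assoc, ← pow_add]
  exact mul_le_mul_of_nonneg_left (gComb_pow X h3) X.C_pos.le

open Classical in
theorem GP.count (X : GP G Z) (κ : ℝ) : ∃ N : ℕ, ∀ (k : ℕ) (ξ : Z),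
    ((X.S k).filter fun x => dist (X.π x) ξ ≤ κ * X.q ^ k).card ≤ N := by
  obtain ⟨R, hR⟩ := X.near (2 * κ) 0
  refine ⟨(X.B R).card, fun k ξ => ?_⟩
  rcases ((X.S k).filter fun x => dist (X.π x) ξ ≤ κ * X.q ^ k).eq_empty_or_nonempty with h | ⟨x₀, h⟩
  · simp [h]
  rw [Finset.mem_filter, X.mem_S] at h
  refine Finset.card_le_card_of_injOn (fun x => x₀⁻¹ * x) (fun x hx => ?_)
    fun a _ b _ hab => mul_left_cancel hab
  rw [Finset.mem_coe, Finset.mem_filter, X.mem_S] at hx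
  refine Finset.mem_coe.2 (X.mem_B.2 (hR k x₀ x h.1.ge h.1.le hx.1.ge hx.1.le ?_))
  linarith [dist_triangle_right (X.π x₀) (X.π x) ξ, h.2, hx.2]

open Classical in
/-- Growth and cone bounds. -/
theorem GP.cone (X : GP G Z) : ∃ N D : ℕ, 2 ≤ D ∧ (∀ j, (X.B j).card ≤ D ^ j) ∧
    ∀ (g : G) (j t : ℕ), ((X.S j).filter fun y => t ≤ gp X.ν y g).card ≤ N * D ^ (j - t) := by
  obtain ⟨N, hN⟩ := X.count (2 * X.C)
  have hB : ∀ j, (X.B j).card ≤ max 2 (X.B 1).card ^ j := by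
    intro j
    induction j with
    | zero =>
      refine Finset.card_le_one.2 fun a ha b hb => ?_
      rw [X.mem_B, Nat.le_zero, X.wn.zero_iff] at ha hb
      rw [ha, hb]
    | succ j ih =>
      have h1 : X.B (j + 1) ⊆ Finset.image₂ (· * ·) (X.B 1) (X.B j) := fun x hx => by
        rw [X.mem_B] at hx
        obtain ⟨a, h2, h3⟩ := gComb_split X x (min 1 (X.ν x)) (min_le_right _ _)
        exact Finset.mem_image₂.2 ⟨a, X.mem_B.2 (by omega), a⁻¹ * x, X.mem_B.2 (by omega),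
          mul_inv_cancel_left a x⟩
      refine (Finset.card_le_card h1).trans ((Finset.card_image₂_le _ _ _).trans ?_)
      rw [pow_succ']
      exact Nat.mul_le_mul (le_max_right _ _) ih
  refine ⟨N, max 2 (X.B 1).card, le_max_left _ _, hB, fun g j t => ?_⟩
  have h1 : ((X.S j).filter fun y => t ≤ gp X.ν y g) ⊆ Finset.image₂ (· * ·)
      ((X.S t).filter fun x => dist (X.π x) (X.π g) ≤ 2 * X.C * X.q ^ t) (X.B (j - t)) := by
    intro y hy
    rw [Finset.mem_filter, X.mem_S] at hy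
    have h2 := X.wn.mul y (y⁻¹ * g)
    rw [mul_inv_cancel_left] at h2
    have h3 : t ≤ X.ν y := hy.2.trans (by unfold gp; omega)
    obtain ⟨a, h4, h5⟩ := gComb_split X y t h3
    refine Finset.mem_image₂.2 ⟨a, Finset.mem_filter.2 ⟨X.mem_S.2 h4, ?_⟩, a⁻¹ * y,
      X.mem_B.2 (by omega), mul_inv_cancel_left a y⟩
    have h6 := gComb_dist X a y (t := t) (by unfold gp; omega)
    linarith [gComb_dist X y g hy.2, dist_triangle (X.π a) (X.π y) (X.π g)]
  exact (Finset.card_le_card h1).trans ((Finset.card_image₂_le _ _ _).trans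
    (Nat.mul_le_mul (hN t _) (hB _)))

theorem GP.asym (X : GP G Z) (g : G) {η : ℝ} (hη : 0 < η) : ∃ k₀, ∀ x, k₀ ≤ X.ν x →
    dist (X.π (g * x)) (g • X.π x) ≤ η := by
  have hg := pow_pos X.q_pos (X.ν g)
  obtain ⟨k₀, hk⟩ := exists_pow_lt_of_lt_one (div_pos (mul_pos hη hg) X.C_pos) X.q_lt
  refine ⟨k₀, fun x hx => ?_⟩
  have h1 := (X.m2 g x (X.π x)).1
  have h2 : Pp X.ν X.π X.q x (X.π x) = X.q ^ X.ν x := by
    rw [Pp, dist_self, max_eq_right (pow_pos X.q_pos _).le]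
  have h3 := X.wn.mul (x⁻¹ * g⁻¹) g
  rw [inv_mul_cancel_right, X.wn.inv] at h3
  have h4 : X.q ^ X.ν g ≤ X.q ^ gp X.ν x g⁻¹ := gComb_pow X (by
    unfold gp
    rw [X.wn.inv]
    omega)
  have h5 : X.q ^ X.ν g ≤ Pp X.ν X.π X.q g⁻¹ (X.π x) := by
    rw [← X.wn.inv]
    exact le_max_right _ _
  have h6 : dist (X.π (g * x)) (g • X.π x) * (X.q ^ X.ν g * X.q ^ X.ν g) ≤
      X.C * (X.q ^ X.ν g * X.q ^ X.ν x) := by
    rw [← h2]
    exact (mul_le_mul (le_max_left _ _) (mul_le_mul h4 h5 hg.le (hg.le.trans h4)) (by positivity)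
      (dist_nonneg.trans (le_max_left _ _))).trans h1
  rw [lt_div_iff₀ X.C_pos] at hk
  have h7 := mul_le_mul_of_nonneg_left (gComb_pow X hx) X.C_pos.le
  refine le_of_mul_le_mul_right (h6.trans ?_) (mul_pos hg hg)
  nlinarith

end Vale.Agent.P198
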