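import Vale.Agent.P198.U.Main

/-!
# P198 G/Kit: small tools
-/

namespace Vale.Agent.P198
open Set Metric Filter Topology MeasureTheory
variable {G Z : Type} [Group G] [MetricSpace Z] [CompactSpace Z] [MulAction G Z]
  [ContinuousConstSMul G Z]

/-- Comparison of powers of `q` gives comparison of exponents. -/
theorem GP.pow_cmp (X : GP G Z) (K : ℝ) : ∃ m : ℕ, ∀ a b : ℕ, X.q ^ a ≤ K * X.q ^ b → b ≤ a + m := by
  obtain ⟨m, hm⟩ : ∃ m : ℕ, X.q ^ m < 1 / (|K| + 1) :=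
    exists_pow_lt_of_lt_one (by positivity) X.q_lt
  refine ⟨m, fun a b h => ?_⟩
  by_contra hc
  have h1 : X.q ^ b ≤ X.q ^ (a + m) := pow_le_pow_of_le_one X.q_pos.le X.q_lt.le (by omega)
  have ha := pow_pos X.q_pos a
  have hb := pow_pos X.q_pos b
  rw [lt_div_iff₀ (by positivity)] at hm
  rw [pow_add] at h1
  have h2 : K * X.q ^ b ≤ (|K| + 1) * X.q ^ b :=
    mul_le_mul_of_nonneg_right ((le_abs_self K).trans (by linarith)) hb.le
  have h3 : (|K| + 1) * X.q ^ b ≤ (|K| + 1) * (X.q ^ a * X.q ^ m) :=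
    mul_le_mul_of_nonneg_left h1 (by positivity)
  nlinarith

theorem GP.nu_one (X : GP G Z) : X.ν 1 = 0 := (X.wn.zero_iff 1).2 rfl

theorem GP.C_pos (X : GP G Z) : 0 < X.C := one_pos.trans_le X.C_ge

theorem GP.dist_one (X : GP G Z) (ξ : Z) : dist ξ (X.π 1) ≤ X.C := by
  obtain ⟨x, h1, h2⟩ := X.net 0 ξ
  rw [(X.wn.zero_iff x).1 h1, pow_zero, mul_one] at h2
  exact h2

theorem GP.dist_le (X : GP G Z) (ξ ζ : Z) : dist ξ ζ ≤ 2 * X.C := by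
  linarith [dist_triangle_right ξ ζ (X.π 1), X.dist_one ξ, X.dist_one ζ]

/-- A scale comparable with `s`. -/
theorem GP.scale (X : GP G Z) {s : ℝ} (h0 : 0 < s) (h1 : s ≤ 1) :
    ∃ k : ℕ, X.q * X.q ^ k < s ∧ s ≤ X.q ^ k := by
  obtain ⟨k, h2, h3⟩ := exists_nat_pow_near_of_lt_one h0 h1 X.q_pos X.q_lt
  exact ⟨k, by rwa [pow_succ'] at h2, h3⟩

/-- `m1` for the inverse. -/
theorem GP.m1' (X : GP G Z) (g : G) (ξ ζ : Z) :
    Cmp X.C (dist (g⁻¹ • ξ) (g⁻¹ • ζ) * (Pp X.ν X.π X.q g ξ * Pp X.ν X.π X.q g ζ))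
      (X.q ^ X.ν g * dist ξ ζ) := by
  have := X.m1 g⁻¹ ξ ζ
  rwa [inv_inv, X.wn.inv] at this

end Vale.Agent.P198
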