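import Vale.Agent.P198.G.Zoom

/-!
# P198 G/Llc  (helper names start with gLlc_)

Take `ε` from `sep` (`c = 1`), `δ` from `sph_small X.sph`, `M` from `shrink`.
`llc1`: for `ξ ≠ ζ` take `k` from `scale` for `dist ξ ζ / (2 C)` (`dist_le`), `g` from `net k ξ`, `Λ = M / q`.  If no point `w` has `M q ^ k ≤ dist w ξ` use `sph_conn`.
Otherwise take the disc `D` around `g⁻¹ • w`; it misses `g⁻¹ • ξ`, `g⁻¹ • ζ` (`sep`) and contains `g⁻¹ • w'` for all far `w'` (`shrink`); join in `Dᶜ`, push the path by `g`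
(`JoinedIn.map` or `Path.map`, `continuous_const_smul`).
`llc2`: `Λ = M / q ≥ 2 C`, so `r ≤ 1`; `k` from `scale` for `r`, `g` from `net k p`, disc `D` around `g⁻¹ • ξ` contains `g⁻¹ • ζ` and misses `g⁻¹ • ball p r`; join inside `D`.
-/

namespace Vale.Agent.P198
open Set Metric Filter Topology MeasureTheory
variable {G Z : Type} [Group G] [MetricSpace Z] [CompactSpace Z] [MulAction G Z]
  [ContinuousConstSMul G Z]

omit [CompactSpace Z] in
theorem gLlc_push {D S : Set Z} (hD : IsPathConnected D) (g : G) {ξ ζ : Z} (h1 : g⁻¹ • ξ ∈ D)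
    (h2 : g⁻¹ • ζ ∈ D) (h : ∀ y ∈ D, g • y ∈ S) : JoinedIn S ξ ζ := by
  have := (hD.joinedIn _ h1 _ h2).map (continuous_const_smul g)
  simp only [smul_inv_smul] at this
  exact this.mono (image_subset_iff.2 h)

omit [CompactSpace Z] [ContinuousConstSMul G Z] in
theorem gLlc_lam (X : GP G Z) {M : ℝ} (hM : M ≥ 4 * X.C) : M ≤ M / X.q := by
  have := X.C_ge
  rw [le_div_iff₀ X.q_pos]
  nlinarith [X.q_lt]

theorem GP.llc1 (X : GP G Z) : ∃ Λ ≥ (1 : ℝ), ∀ ξ ζ : Z,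
    JoinedIn (closedBall ξ (Λ * dist ξ ζ)) ξ ζ := by
  obtain ⟨ε, hε, hs⟩ := X.sep one_pos
  obtain ⟨δ, hδ, hD⟩ := sph_small X.sph hε
  obtain ⟨M, hM, hk⟩ := X.shrink hδ
  have hC := X.C_ge
  have hq := X.q_pos
  have hL := gLlc_lam X hM
  refine ⟨M / X.q, by linarith, fun ξ ζ => ?_⟩
  rcases eq_or_ne ξ ζ with rfl | hne
  · exact JoinedIn.refl (by simp)
  have hd := dist_pos.2 hne
  obtain ⟨k, h1, h2⟩ := X.scale (s := dist ξ ζ / (2 * X.C)) (by positivity)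
    ((div_le_one (by positivity)).2 (X.dist_le ξ ζ))
  obtain ⟨g, rfl, hg⟩ := X.net k ξ
  have ht := pow_pos hq (X.ν g)
  rw [div_le_iff₀ (by positivity)] at h2
  rw [lt_div_iff₀ (by positivity)] at h1
  have h3 : M * X.q ^ X.ν g ≤ M / X.q * dist ξ ζ := by
    rw [div_mul_eq_mul_div, le_div_iff₀ hq, mul_assoc]
    refine mul_le_mul_of_nonneg_left ?_ (by linarith)
    nlinarith [mul_pos hq ht]
  have h4 : 4 * X.C * X.q ^ X.ν g ≤ M * X.q ^ X.ν g := mul_le_mul_of_nonneg_right hM ht.le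
  have h5 : X.q ^ X.ν g ≤ X.C * X.q ^ X.ν g := le_mul_of_one_le_left ht.le hC
  by_cases hw : ∃ w, M * X.q ^ X.ν g ≤ dist w ξ
  · obtain ⟨w, hw⟩ := hw
    obtain ⟨D, d1, d2, -, -, d3⟩ := hD (g⁻¹ • w)
    have h6 : ∀ η, dist η ξ ≤ 2 * X.C * X.q ^ X.ν g → g⁻¹ • η ∈ Dᶜ := fun η hη hm => by
      have := hs g ξ η w hg hη (by linarith [dist_triangle_left w ξ η])
      exact (mem_ball.1 (d2 hm)).not_ge this
    refine gLlc_push d3 g (h6 ξ (by rw [dist_self]; positivity))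
      (h6 ζ (by rw [dist_comm]; linarith)) fun y hy => ?_
    by_contra hc
    have := hk g ξ (g • y) w hg (by linarith [not_le.1 (mt mem_closedBall.2 hc)]) hw
    rw [inv_smul_smul] at this
    exact hy (d1 this)
  · have := (sph_conn X.sph).1
    refine (joinedIn_univ.2 (PathConnectedSpace.joined ξ ζ)).mono fun w _ => ?_
    exact mem_closedBall.2 ((not_le.1 fun h => hw ⟨w, h⟩).le.trans h3)

theorem GP.llc2 (X : GP G Z) : ∃ Λ ≥ (1 : ℝ), ∀ (p ξ ζ : Z) (r : ℝ), 0 < r → Λ * r ≤ dist ξ p →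
    Λ * r ≤ dist ζ p → JoinedIn (ball p r)ᶜ ξ ζ := by
  obtain ⟨ε, hε, hs⟩ := X.sep one_pos
  obtain ⟨δ, hδ, hD⟩ := sph_small X.sph hε
  obtain ⟨M, hM, hk⟩ := X.shrink hδ
  have hC := X.C_ge
  have hq := X.q_pos
  have hL := gLlc_lam X hM
  refine ⟨M / X.q, by linarith, fun p ξ ζ r hr hξ hζ => ?_⟩
  have hr1 : r ≤ 1 := by
    have h1 := X.dist_le ξ p
    have h2 : 4 * X.C * r ≤ M / X.q * r := mul_le_mul_of_nonneg_right (by linarith) hr.le
    nlinarith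
  obtain ⟨k, h1, h2⟩ := X.scale hr hr1
  obtain ⟨g, rfl, hg⟩ := X.net k p
  have ht := pow_pos hq (X.ν g)
  have h3 : M * X.q ^ X.ν g ≤ M / X.q * r := by
    rw [div_mul_eq_mul_div, le_div_iff₀ hq, mul_assoc]
    refine mul_le_mul_of_nonneg_left ?_ (by linarith)
    linarith
  have h4 : 4 * X.C * X.q ^ X.ν g ≤ M * X.q ^ X.ν g := mul_le_mul_of_nonneg_right hM ht.le
  have h5 : X.q ^ X.ν g ≤ X.C * X.q ^ X.ν g := le_mul_of_one_le_left ht.le hC
  obtain ⟨D, d1, d2, -, d3, -⟩ := hD (g⁻¹ • ξ)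
  refine gLlc_push d3 g (d1 (mem_ball_self hδ))
    (d1 (hk g p ζ ξ hg (h3.trans hζ) (h3.trans hξ))) fun y hy hc => ?_
  have h6 := mem_ball.1 hc
  have := hs g p (g • y) ξ hg (by linarith) (by linarith [dist_triangle_left ξ p (g • y)])
  rw [inv_smul_smul] at this
  exact (mem_ball.1 (d2 hy)).not_ge this

end Vale.Agent.P198
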