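import Vale.Agent.P198.G.Kit

/-!
# P198 G/Lox  (helper names start with gLox_)
-/

namespace Vale.Agent.P198
open Set Metric Filter Topology MeasureTheory
variable {G Z : Type} [Group G] [MetricSpace Z] [CompactSpace Z] [MulAction G Z]
  [ContinuousConstSMul G Z]

/-- `g` contracts the complement of the `ε`-ball at `b` into the `ε`-ball at `a`. -/
def gLox_NS (g : G) (a b : Z) (ε : ℝ) : Prop :=
  ∀ ξ : Z, ε ≤ dist ξ b → dist (g • ξ) a ≤ ε ∧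
    ∀ ζ : Z, ε ≤ dist ζ b → dist (g • ξ) (g • ζ) ≤ dist ξ ζ / 2

theorem gLox_deep (X : GP G Z) {ε : ℝ} (hε : 0 < ε) : ∃ k₀ : ℕ, ∀ g : G, k₀ ≤ X.ν g →
    X.C * X.q ^ X.ν g ≤ ε ∧ gLox_NS g (X.π g) (X.π g⁻¹) ε := by
  have hC := X.C_pos
  have hC1 := X.C_ge
  obtain ⟨k₀, hk⟩ : ∃ k : ℕ, X.q ^ k < min (ε / X.C) (ε ^ 2 / (2 * X.C ^ 2)) :=
    exists_pow_lt_of_lt_one (by positivity) X.q_lt
  refine ⟨k₀, fun g hg => ?_⟩
  have h0 : X.q ^ X.ν g ≤ X.q ^ k₀ := pow_le_pow_of_le_one X.q_pos.le X.q_lt.le hg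
  have ht := pow_pos X.q_pos (X.ν g)
  have h1 : X.q ^ X.ν g * X.C ≤ ε := (le_div_iff₀ hC).1 (h0.trans (hk.le.trans (min_le_left _ _)))
  have h2 : X.q ^ X.ν g * (2 * X.C ^ 2) ≤ ε ^ 2 :=
    (le_div_iff₀ (by positivity)).1 (h0.trans (hk.le.trans (min_le_right _ _)))
  refine ⟨by linarith, fun ξ hξ => ⟨?_, fun ζ hζ => ?_⟩⟩
  · have m := (X.m2 g 1 ξ).1
    have e : gp X.ν 1 g⁻¹ = 0 := by simp [gp, X.nu_one]
    rw [mul_one, e, pow_zero, one_mul] at m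
    have a1 : dist (g • ξ) (X.π g) ≤ Pp X.ν X.π X.q g (g • ξ) := by
      rw [dist_comm]; exact le_max_left _ _
    have a2 : ε ≤ Pp X.ν X.π X.q g⁻¹ ξ := by
      rw [dist_comm] at hξ; exact hξ.trans (le_max_left _ _)
    have a3 : Pp X.ν X.π X.q 1 ξ ≤ X.C := by
      refine max_le ?_ ?_
      · rw [dist_comm]; exact X.dist_one ξ
      · rw [X.nu_one, pow_zero]; exact hC1
    have a4 : dist (g • ξ) (X.π g) * ε ≤ X.C * (X.q ^ X.ν g * X.C) :=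
      (mul_le_mul a1 a2 hε.le (dist_nonneg.trans a1)).trans (m.trans (by gcongr))
    refine le_of_mul_le_mul_right (a4.trans ?_) hε
    nlinarith [mul_pos ht (pow_pos hC 2)]
  · have m := (X.m1 g ξ ζ).1
    have a2 : ε ≤ Pp X.ν X.π X.q g⁻¹ ξ := by
      rw [dist_comm] at hξ; exact hξ.trans (le_max_left _ _)
    have a3 : ε ≤ Pp X.ν X.π X.q g⁻¹ ζ := by
      rw [dist_comm] at hζ; exact hζ.trans (le_max_left _ _)
    have a4 : dist (g • ξ) (g • ζ) * (ε * ε) ≤ X.C * (X.q ^ X.ν g * dist ξ ζ) :=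
      (mul_le_mul_of_nonneg_left (mul_le_mul a2 a3 hε.le (hε.le.trans a2)) dist_nonneg).trans m
    have a5 : X.q ^ X.ν g * X.C ≤ ε * ε / 2 := by
      have : X.q ^ X.ν g * X.C ≤ X.q ^ X.ν g * X.C ^ 2 := by
        refine mul_le_mul_of_nonneg_left ?_ ht.le
        nlinarith
      nlinarith
    refine le_of_mul_le_mul_right (a4.trans ?_) (mul_pos hε hε)
    nlinarith [mul_le_mul_of_nonneg_right a5 (dist_nonneg (x := ξ) (y := ζ))]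

theorem gLox_comp {g h : G} {a b a' b' : Z} {ε : ℝ} (hg : gLox_NS g a b ε)
    (hh : gLox_NS h a' b' ε) (hd : 2 * ε ≤ dist a' b) : gLox_NS (g * h) a b' ε := by
  have key : ∀ ξ, ε ≤ dist ξ b' → ε ≤ dist (h • ξ) b := fun ξ hξ => by
    linarith [dist_triangle_left a' b (h • ξ), (hh ξ hξ).1]
  intro ξ hξ
  refine ⟨?_, fun ζ hζ => ?_⟩
  · rw [mul_smul]; exact (hg _ (key ξ hξ)).1
  · rw [mul_smul, mul_smul]
    linarith [(hg _ (key ξ hξ)).2 _ (key ζ hζ), (hh ξ hξ).2 ζ hζ, dist_nonneg (x := ξ) (y := ζ)]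

theorem gLox_far {a b ξ : Z} {ε : ℝ} (hd : 3 * ε ≤ dist a b) (h : dist ξ a ≤ ε) :
    2 * ε ≤ dist ξ b := by
  linarith [dist_triangle_left a b ξ]

theorem gLox_fix {g : G} {a b : Z} {ε : ℝ} (hε : 0 < ε) (hg : gLox_NS g a b ε)
    (hd : 3 * ε ≤ dist a b) : ∃ α, dist α a ≤ ε ∧ g • α = α := by
  obtain ⟨α, h1, h2⟩ := (isCompact_closedBall a ε).exists_isMinOn
    (f := fun ξ => dist (g • ξ) ξ) ⟨a, mem_closedBall_self hε.le⟩
    ((continuous_const_smul g).dist continuous_id).continuousOn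
  rw [mem_closedBall] at h1
  have f1 : ε ≤ dist α b := by linarith [gLox_far hd h1]
  have h3 := (hg α f1).1
  have f2 : ε ≤ dist (g • α) b := by linarith [gLox_far hd h3]
  have h4 := (hg _ f2).2 α f1
  have h5 : dist (g • α) α ≤ dist (g • g • α) (g • α) := h2 (mem_closedBall.2 h3)
  exact ⟨α, h1, dist_le_zero.1 (by linarith)⟩

theorem gLox_iter {g : G} {a b α : Z} {ε : ℝ} (hε : 0 < ε) (hg : gLox_NS g a b ε)
    (hd : 3 * ε ≤ dist a b) (hα : dist α a ≤ ε) (hf : g • α = α) (n : ℕ) :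
    ∀ ξ, ε ≤ dist ξ b → dist (g ^ n • ξ) α ≤ (1 / 2) ^ n * dist ξ α := by
  have f1 : ε ≤ dist α b := by linarith [gLox_far hd hα]
  induction n with
  | zero => intro ξ _; simp
  | succ n ih =>
    intro ξ hξ
    have f2 : ε ≤ dist (g • ξ) b := by linarith [gLox_far hd (hg ξ hξ).1]
    have h1 := (hg ξ hξ).2 α f1
    rw [hf] at h1
    rw [pow_succ, mul_smul, pow_succ]
    refine (ih _ f2).trans ?_
    rw [mul_assoc]
    exact mul_le_mul_of_nonneg_left (by linarith) (by positivity)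

theorem gLox_dyn (X : GP G Z) {g : G} {a b : Z} {ε : ℝ} (hε : 0 < ε) (hg : gLox_NS g a b ε)
    (hg' : gLox_NS g⁻¹ b a ε) (hd : 3 * ε ≤ dist a b) :
    ∃ α β : Z, dist α a ≤ ε ∧ α ≠ β ∧ g • α = α ∧ g • β = β ∧
      ∀ η > 0, ∀ᶠ n : ℕ in atTop, ∀ ξ, η ≤ dist ξ β → dist (g ^ n • ξ) α ≤ η := by
  have hd' : 3 * ε ≤ dist b a := by rwa [dist_comm]
  obtain ⟨α, h1, h2⟩ := gLox_fix hε hg hd
  obtain ⟨β, h3, h4⟩ := gLox_fix hε hg' hd'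
  have hC := X.C_pos
  refine ⟨α, β, h1, ?_, h2, ?_, fun η hη => ?_⟩
  · rintro rfl
    linarith [gLox_far hd h1]
  · rw [inv_smul_eq_iff] at h4
    exact h4.symm
  · obtain ⟨m, hm⟩ : ∃ m : ℕ, (1 / 2 : ℝ) ^ m < η / (2 * X.C) :=
      exists_pow_lt_of_lt_one (by positivity) (by norm_num)
    rw [lt_div_iff₀ (by positivity)] at hm
    filter_upwards [eventually_ge_atTop (2 * m)] with n hn ξ hξ
    have f1 : ε ≤ dist (g ^ m • ξ) b := by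
      by_contra hc
      have f2 : ε ≤ dist (g ^ m • ξ) a := by linarith [gLox_far hd' (not_le.1 hc).le]
      have := gLox_iter hε hg' hd' h3 h4 m _ f2
      rw [inv_pow, inv_smul_smul] at this
      have h5 : (1 / 2 : ℝ) ^ m * dist (g ^ m • ξ) β ≤ (1 / 2) ^ m * (2 * X.C) :=
        mul_le_mul_of_nonneg_left (X.dist_le _ _) (by positivity)
      linarith
    obtain ⟨j, rfl⟩ : ∃ j, n = j + m := ⟨n - m, by omega⟩
    rw [pow_add, mul_smul]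
    refine (gLox_iter hε hg hd h1 h2 j _ f1).trans ?_
    have h5 : (1 / 2 : ℝ) ^ j ≤ (1 / 2) ^ m :=
      pow_le_pow_of_le_one (by norm_num) (by norm_num) (by omega)
    exact (mul_le_mul h5 (X.dist_le _ _) dist_nonneg (by positivity)).trans hm.le

theorem gLox_two (X : GP G Z) {V : Set Z} (hV : IsOpen V) (hne : V.Nonempty) : V.Nontrivial := by
  obtain ⟨h1, -, h3⟩ := sph_conn X.sph
  by_contra hc
  obtain ⟨a, rfl⟩ := (subsingleton_iff_singleton hne.some_mem).1 (not_nontrivial_iff.1 hc) |>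
    fun h => (⟨_, h⟩ : ∃ a, V = {a})
  have := (IsClopen.eq_univ ⟨isClosed_singleton, hV⟩ hne).symm
  exact infinite_univ (this ▸ finite_singleton a)

/-- A loxodromic element with attracting point in a given open set. -/
theorem GP.lox (X : GP G Z) {V : Set Z} (hV : IsOpen V) (hne : V.Nonempty) :
    ∃ (γ : G) (α β : Z), α ∈ V ∧ α ≠ β ∧ γ • α = α ∧ γ • β = β ∧
      ∀ ε > 0, ∀ᶠ n : ℕ in atTop, ∀ ξ, ε ≤ dist ξ β → dist (γ ^ n • ξ) α ≤ ε := by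
  obtain ⟨ξ₁, h₁, ξ₂, h₂, hne'⟩ := gLox_two X hV hne
  obtain ⟨r₁, hr₁, b₁⟩ := Metric.isOpen_iff.1 hV ξ₁ h₁
  obtain ⟨r₂, hr₂, b₂⟩ := Metric.isOpen_iff.1 hV ξ₂ h₂
  have hd := dist_pos.2 hne'
  obtain ⟨ε, hε, e0, e1, e2⟩ : ∃ ε > 0, 10 * ε ≤ dist ξ₁ ξ₂ ∧ 3 * ε ≤ r₁ ∧ 3 * ε ≤ r₂ :=
    ⟨min (dist ξ₁ ξ₂) (min r₁ r₂) / 10, by positivity, by linarith [min_le_left (dist ξ₁ ξ₂) (min r₁ r₂)],
      by linarith [min_le_right (dist ξ₁ ξ₂) (min r₁ r₂), min_le_left r₁ r₂],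
      by linarith [min_le_right (dist ξ₁ ξ₂) (min r₁ r₂), min_le_right r₁ r₂]⟩
  obtain ⟨k, hk⟩ := gLox_deep X hε
  obtain ⟨g₁, n₁, d₁⟩ := X.net k ξ₁
  obtain ⟨g₂, n₂, d₂⟩ := X.net k ξ₂
  obtain ⟨c₁, p₁⟩ := hk g₁ n₁.ge
  obtain ⟨c₂, p₂⟩ := hk g₂ n₂.ge
  have p₁' := (hk g₁⁻¹ (by rw [X.wn.inv, n₁])).2
  have p₂' := (hk g₂⁻¹ (by rw [X.wn.inv, n₂])).2
  rw [inv_inv] at p₁' p₂'
  rw [n₁] at c₁
  replace d₁ := d₁.trans c₁
  replace d₂ := d₂.trans c₁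
  have v₁ : ∀ α, dist α (X.π g₁) ≤ ε → α ∈ V := fun α h => b₁ (by
    rw [mem_ball]; linarith [dist_triangle_right α ξ₁ (X.π g₁)])
  have v₂ : ∀ α, dist α (X.π g₂) ≤ ε → α ∈ V := fun α h => b₂ (by
    rw [mem_ball]; linarith [dist_triangle_right α ξ₂ (X.π g₂)])
  by_cases a₁ : 3 * ε ≤ dist (X.π g₁) (X.π g₁⁻¹)
  · obtain ⟨α, β, h1, h2⟩ := gLox_dyn X hε p₁ p₁' a₁
    exact ⟨g₁, α, β, v₁ α h1, h2⟩
  by_cases a₂ : 3 * ε ≤ dist (X.π g₂) (X.π g₂⁻¹)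
  · obtain ⟨α, β, h1, h2⟩ := gLox_dyn X hε p₂ p₂' a₂
    exact ⟨g₂, α, β, v₂ α h1, h2⟩
  rw [not_le] at a₁ a₂
  have t0 : 8 * ε ≤ dist (X.π g₁) (X.π g₂) := by
    linarith [dist_triangle4_right ξ₁ ξ₂ (X.π g₁) (X.π g₂)]
  have t1 : 2 * ε ≤ dist (X.π g₂) (X.π g₁⁻¹) := by
    linarith [dist_triangle_right (X.π g₁) (X.π g₂) (X.π g₁⁻¹)]
  have t2 : 3 * ε ≤ dist (X.π g₁) (X.π g₂⁻¹) := by
    linarith [dist_triangle_right (X.π g₁) (X.π g₂) (X.π g₂⁻¹)]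
  have q1 := gLox_comp p₁ p₂ t1
  have q2 := gLox_comp p₂' p₁' (by rwa [dist_comm])
  rw [← mul_inv_rev] at q2
  obtain ⟨α, β, h1, h2⟩ := gLox_dyn X hε q1 q2 t2
  exact ⟨g₁ * g₂, α, β, v₁ α h1, h2⟩

end Vale.Agent.P198
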