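import Vale.Agent.P198.G.Zoom

/-!
# P198 G/Trip  (helper names start with gTrip_)

`triples`: take the closest pair `i ≠ j` (`Finset.exists_min_image` on the off-diagonal), `k` from `scale` for `dist (ξ i) (ξ j) / (2 C)`, `g` from `net k (ξ i)`, use `g⁻¹`;
each pair `a ≠ b` contains `i` or `j`; `sep` with `c = 2 C q`, `p = ξ i`.
`proper`: `sep` with `c = 1` for `g⁻¹`, `p = η = π g⁻¹`.  With two points `a ≠ b` (`sph_conn`) and `s₀ = dist a b / 2`, each point has a point at any distance `s ∈ [0, s₀]`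
(`intermediate_value_univ`).  If `q ^ ν g ≤ min δ s₀` this contradicts `c = ε / 2`; so `ν g` is bounded, `wn.fin`.
-/

namespace Vale.Agent.P198
open Set Metric Filter Topology MeasureTheory
variable {G Z : Type} [Group G] [MetricSpace Z] [CompactSpace Z] [MulAction G Z]
  [ContinuousConstSMul G Z]

/-- Cocompactness on triples. -/
theorem GP.triples (X : GP G Z) : ∃ c > 0, ∀ ξ : Fin 3 → Z, Function.Injective ξ →
    ∃ g : G, ∀ i j, i ≠ j → c ≤ dist (g • ξ i) (g • ξ j) := by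
  have hC := X.C_pos
  have hq := X.q_pos
  obtain ⟨ε, hε, hs⟩ := X.sep (c := 2 * X.C * X.q) (by positivity)
  refine ⟨ε, hε, fun ξ hξ => ?_⟩
  obtain ⟨⟨i, j⟩, hij, hmin⟩ := Finset.exists_min_image
    ((Finset.univ : Finset (Fin 3 × Fin 3)).filter fun p => p.1 ≠ p.2)
    (fun p => dist (ξ p.1) (ξ p.2)) ⟨(0, 1), by simp⟩
  have h1 : i ≠ j := (Finset.mem_filter.1 hij).2
  have h2 : 0 < dist (ξ i) (ξ j) := dist_pos.2 (hξ.ne h1)
  obtain ⟨k, k1, k2⟩ := X.scale (s := dist (ξ i) (ξ j) / (2 * X.C)) (by positivity)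
    ((div_le_one (by positivity)).2 (X.dist_le _ _))
  rw [lt_div_iff₀ (by positivity)] at k1
  rw [div_le_iff₀ (by positivity)] at k2
  obtain ⟨g, rfl, hg⟩ := X.net k (ξ i)
  have key : ∀ a b, a ≠ b → a = i ∨ a = j → ε ≤ dist (g⁻¹ • ξ a) (g⁻¹ • ξ b) := by
    intro a b hab ha
    have h3 : dist (ξ i) (ξ j) ≤ dist (ξ a) (ξ b) :=
      hmin (a, b) (Finset.mem_filter.2 ⟨Finset.mem_univ _, hab⟩)
    refine hs g (ξ i) _ _ hg ?_ (by linarith)
    rcases ha with rfl | rfl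
    · rw [dist_self]
      positivity
    · rw [dist_comm]
      linarith
  refine ⟨g⁻¹, fun a b hab => ?_⟩
  have h4 : (a = i ∨ a = j) ∨ (b = i ∨ b = j) := by omega
  rcases h4 with h4 | h4
  · exact key a b hab h4
  · rw [dist_comm]
    exact key b a hab.symm h4

omit [CompactSpace Z] in
theorem gTrip_dist (hZ : Nonempty (Z ≃ₜ S2)) :
    ∃ s₀ > 0, ∀ (η : Z) (s : ℝ), 0 ≤ s → s ≤ s₀ → ∃ ζ, dist η ζ = s := by
  obtain ⟨h1, -, h2⟩ := sph_conn hZ
  obtain ⟨a, b, hab⟩ := exists_pair_ne Z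
  refine ⟨dist a b / 2, half_pos (dist_pos.2 hab), fun η s h0 hs => ?_⟩
  have hc : Continuous fun ζ => dist η ζ := continuous_const.dist continuous_id
  have h3 := dist_triangle_left a b η
  by_cases h : s ≤ dist η a
  · exact intermediate_value_univ η a hc ⟨by simpa using h0, h⟩
  · exact intermediate_value_univ η b hc ⟨by simpa using h0, by linarith [not_le.1 h]⟩

/-- Equicontinuous sets of elements are finite. -/
theorem GP.proper (X : GP G Z) : ∃ c > 0, ∀ δ > 0,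
    {g : G | ∀ ξ ζ : Z, dist ξ ζ ≤ δ → dist (g • ξ) (g • ζ) ≤ c}.Finite := by
  have hC := X.C_pos
  have hq := X.q_pos
  obtain ⟨ε, hε, hs⟩ := X.sep (c := 1) one_pos
  obtain ⟨s₀, h0, hd⟩ := gTrip_dist X.sph
  refine ⟨ε / 2, half_pos hε, fun δ hδ => ?_⟩
  obtain ⟨n, hn⟩ := exists_pow_lt_of_lt_one (lt_min hδ h0) X.q_lt
  refine (X.wn.fin n).subset fun g hg => ?_
  by_contra hc
  have h1 : X.q ^ X.ν g⁻¹ ≤ X.q ^ n := by
    rw [X.wn.inv]
    exact pow_le_pow_of_le_one hq.le X.q_lt.le (not_le.1 hc).le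
  have h2 := h1.trans hn.le
  obtain ⟨ζ, hζ⟩ := hd (X.π g⁻¹) (X.q ^ X.ν g⁻¹) (by positivity) (h2.trans (min_le_right _ _))
  have h3 := hs g⁻¹ (X.π g⁻¹) (X.π g⁻¹) ζ (by rw [dist_self]; positivity)
    (by rw [dist_self]; positivity) (by rw [hζ, one_mul])
  rw [inv_inv] at h3
  have h4 := hg (X.π g⁻¹) ζ (hζ.le.trans (h2.trans (min_le_left _ _)))
  linarith

end Vale.Agent.P198
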