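import Vale.Agent.P198.G.Kit

/-!
# P198 G/Zoom  (helper names start with gZoom_)

Everything comes from `m1'`, with `t = q ^ ν g`.
`sep`: `Pp g η ≤ 3 C t`, `Pp g ζ ≤ dist η ζ + 3 C t ≤ (1 + 3 C / c) * dist η ζ`; `ε = 1 / (C * (3 C) * (1 + 3 C / c))`.
`shrink`: with `a = dist ξ p`, `b = dist ζ p`: `Pp g ξ ≥ a / 2`, `Pp g ζ ≥ b / 2`, `dist ξ ζ ≤ a + b`, so the distance is at most `8 C / M`.
`zoom`: `g` from `net k p`; `t ≤ Pp g ξ ≤ (C + 1) t` on the ball; last part from `sep` (`c = 1`, `η = p`); `L = max (C (C + 1) ^ 2) ε⁻¹`.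
-/

namespace Vale.Agent.P198
open Set Metric Filter Topology MeasureTheory
variable {G Z : Type} [Group G] [MetricSpace Z] [CompactSpace Z] [MulAction G Z]
  [ContinuousConstSMul G Z]

theorem gZoom_sep {C K t d D P Q : ℝ} (hC : 0 < C) (hK : 0 < K) (ht : 0 < t) (hd : 0 < d)
    (hD : 0 ≤ D) (hQ0 : 0 ≤ Q) (hP : P ≤ 3 * C * t) (hQ : Q ≤ K * d)
    (h : t * d ≤ C * (D * (P * Q))) : 1 / (C * (3 * C) * K) ≤ D := by
  have h1 : P * Q ≤ 3 * C * t * (K * d) := mul_le_mul hP hQ hQ0 (by positivity)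
  have h2 : C * (D * (P * Q)) ≤ C * (D * (3 * C * t * (K * d))) :=
    mul_le_mul_of_nonneg_left (mul_le_mul_of_nonneg_left h1 hD) hC.le
  rw [div_le_iff₀ (by positivity)]
  refine le_of_mul_le_mul_left (a := t * d) ?_ (by positivity)
  have e : C * (D * (3 * C * t * (K * d))) = t * d * (D * (C * (3 * C) * K)) := by ring
  linarith

theorem gZoom_shrink {C M t a b d D P Q : ℝ} (hC : 0 < C) (hM : 0 < M) (ht : 0 < t)
    (ha : M * t ≤ a) (hb : M * t ≤ b) (hD : 0 ≤ D) (hP : a / 2 ≤ P) (hQ : b / 2 ≤ Q)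
    (hd : d ≤ a + b) (h : D * (P * Q) ≤ C * (t * d)) : M * D ≤ 8 * C := by
  have ha0 : 0 < a := lt_of_lt_of_le (by positivity) ha
  have hb0 : 0 < b := lt_of_lt_of_le (by positivity) hb
  have h1 : a / 2 * (b / 2) ≤ P * Q := mul_le_mul hP hQ (by positivity) (by linarith)
  have h2 : D * (a / 2 * (b / 2)) ≤ D * (P * Q) := mul_le_mul_of_nonneg_left h1 hD
  have h3 : C * (t * d) ≤ C * (t * (a + b)) :=
    mul_le_mul_of_nonneg_left (mul_le_mul_of_nonneg_left hd ht.le) hC.le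
  have h4 : M * (D * (a / 2 * (b / 2))) ≤ M * (C * (t * (a + b))) :=
    mul_le_mul_of_nonneg_left (by linarith) hM.le
  have h5 : C * a * (M * t) ≤ C * a * b := mul_le_mul_of_nonneg_left hb (by positivity)
  have h6 : C * b * (M * t) ≤ C * b * a := mul_le_mul_of_nonneg_left ha (by positivity)
  refine le_of_mul_le_mul_left (a := a * b) ?_ (by positivity)
  have e1 : M * (D * (a / 2 * (b / 2))) = a * b * (M * D) / 4 := by ring
  have e2 : M * (C * (t * (a + b))) = C * a * (M * t) + C * b * (M * t) := by ring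
  have e3 : a * b * (8 * C) = 4 * (C * a * b) + 4 * (C * b * a) := by ring
  linarith

/-- Separated points stay separated after zooming. -/
theorem GP.sep (X : GP G Z) {c : ℝ} (hc : 0 < c) : ∃ ε > 0, ∀ (g : G) (p η ζ : Z),
    dist p (X.π g) ≤ X.C * X.q ^ X.ν g → dist η p ≤ 2 * X.C * X.q ^ X.ν g →
      c * X.q ^ X.ν g ≤ dist η ζ → ε ≤ dist (g⁻¹ • η) (g⁻¹ • ζ) := by
  have hC := X.C_pos
  have hC1 := X.C_ge
  refine ⟨1 / (X.C * (3 * X.C) * (1 + 3 * X.C / c)), by positivity, fun g p η ζ h1 h2 h3 => ?_⟩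
  have ht : 0 < X.q ^ X.ν g := pow_pos X.q_pos _
  have hd : 0 < dist η ζ := lt_of_lt_of_le (by positivity) h3
  have a1 : dist (X.π g) η ≤ 3 * X.C * X.q ^ X.ν g := by
    have := dist_triangle (X.π g) p η
    rw [dist_comm (X.π g) p, dist_comm p η] at this
    linarith
  have a2 : X.q ^ X.ν g ≤ 3 * X.C * X.q ^ X.ν g := le_mul_of_one_le_left ht.le (by linarith)
  have a3 : 3 * X.C * X.q ^ X.ν g ≤ 3 * X.C / c * dist η ζ := by
    have h4 : 3 * X.C / c * (c * X.q ^ X.ν g) ≤ 3 * X.C / c * dist η ζ :=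
      mul_le_mul_of_nonneg_left h3 (by positivity)
    have e : 3 * X.C / c * (c * X.q ^ X.ν g) = 3 * X.C * X.q ^ X.ν g := by field_simp
    linarith
  refine gZoom_sep (P := Pp X.ν X.π X.q g η) (Q := Pp X.ν X.π X.q g ζ) hC (by positivity) ht hd
    dist_nonneg (ht.le.trans (le_max_right _ _)) (max_le a1 a2) (max_le ?_ ?_) (X.m1' g η ζ).2
  · have := dist_triangle (X.π g) η ζ
    linarith
  · linarith

/-- Far points become close after zooming. -/
theorem GP.shrink (X : GP G Z) {δ : ℝ} (hδ : 0 < δ) : ∃ M ≥ 4 * X.C, ∀ (g : G) (p ξ ζ : Z),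
    dist p (X.π g) ≤ X.C * X.q ^ X.ν g → M * X.q ^ X.ν g ≤ dist ξ p →
      M * X.q ^ X.ν g ≤ dist ζ p → dist (g⁻¹ • ξ) (g⁻¹ • ζ) < δ := by
  have hC := X.C_pos
  have h0 : 0 < 8 * X.C / δ := by positivity
  refine ⟨4 * X.C + 8 * X.C / δ, by linarith, fun g p ξ ζ h1 h2 h3 => ?_⟩
  have ht : 0 < X.q ^ X.ν g := pow_pos X.q_pos _
  have h4 : 4 * X.C * X.q ^ X.ν g ≤ (4 * X.C + 8 * X.C / δ) * X.q ^ X.ν g :=
    mul_le_mul_of_nonneg_right (by linarith) ht.le
  have h5 : 0 < X.C * X.q ^ X.ν g := by positivity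
  have low : ∀ x : Z, (4 * X.C + 8 * X.C / δ) * X.q ^ X.ν g ≤ dist x p →
      dist x p / 2 ≤ Pp X.ν X.π X.q g x := by
    intro x hx
    refine le_trans ?_ (le_max_left _ _)
    have := dist_triangle x (X.π g) p
    rw [dist_comm x (X.π g), dist_comm (X.π g) p] at this
    linarith
  have k := gZoom_shrink hC (by linarith) ht h2 h3 dist_nonneg (low ξ h2) (low ζ h3)
    (dist_triangle_right ξ ζ p) (X.m1' g ξ ζ).1
  by_contra hn
  have h6 : (4 * X.C + 8 * X.C / δ) * δ ≤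
      (4 * X.C + 8 * X.C / δ) * dist (g⁻¹ • ξ) (g⁻¹ • ζ) :=
    mul_le_mul_of_nonneg_left (not_lt.1 hn) (by linarith)
  have e : (4 * X.C + 8 * X.C / δ) * δ = 4 * (X.C * δ) + 8 * X.C := by field_simp
  have h7 : 0 < X.C * δ := by positivity
  linarith

/-- Self-similarity. -/
theorem GP.zoom (X : GP G Z) : ∃ L ≥ (1 : ℝ), ∀ (k : ℕ) (p : Z), ∃ g : G,
    (∀ ξ ∈ closedBall p (X.q ^ k), ∀ ζ ∈ closedBall p (X.q ^ k),
      Cmp L (dist (g⁻¹ • ξ) (g⁻¹ • ζ) * X.q ^ k) (dist ξ ζ)) ∧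
    ∀ ξ, X.q ^ k ≤ dist ξ p → 1 ≤ L * dist (g⁻¹ • ξ) (g⁻¹ • p) := by
  have hC := X.C_pos
  have hC1 := X.C_ge
  obtain ⟨ε, hε, hs⟩ := X.sep one_pos
  have hL : X.C ≤ X.C * (X.C + 1) ^ 2 := le_mul_of_one_le_right hC.le (by nlinarith)
  have hL1 := le_max_left (X.C * (X.C + 1) ^ 2) ε⁻¹
  have hL2 := le_max_right (X.C * (X.C + 1) ^ 2) ε⁻¹
  generalize max (X.C * (X.C + 1) ^ 2) ε⁻¹ = L at hL1 hL2
  refine ⟨L, by linarith, fun k p => ?_⟩
  obtain ⟨g, hg, hp⟩ := X.net k p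
  subst hg
  have ht : 0 < X.q ^ X.ν g := pow_pos X.q_pos _
  have h5 : 0 < X.C * X.q ^ X.ν g := by positivity
  have up : ∀ x ∈ closedBall p (X.q ^ X.ν g),
      Pp X.ν X.π X.q g x ≤ (X.C + 1) * X.q ^ X.ν g := by
    intro x hx
    rw [mem_closedBall] at hx
    refine max_le ?_ (by linarith)
    have := dist_triangle (X.π g) p x
    rw [dist_comm (X.π g) p, dist_comm p x] at this
    linarith
  have low : ∀ x : Z, X.q ^ X.ν g ≤ Pp X.ν X.π X.q g x := fun x => le_max_right _ _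
  refine ⟨g, fun ξ hξ ζ hζ => ?_, fun ξ hξ => ?_⟩
  · obtain ⟨m1, m2⟩ := X.m1' g ξ ζ
    have hD : 0 ≤ dist (g⁻¹ • ξ) (g⁻¹ • ζ) := dist_nonneg
    have hd : 0 ≤ dist ξ ζ := dist_nonneg
    have a1 := mul_le_mul (low ξ) (low ζ) ht.le (ht.le.trans (low ξ))
    have a2 := mul_le_mul (up ξ hξ) (up ζ hζ) (ht.le.trans (low ζ)) (by positivity)
    generalize Pp X.ν X.π X.q g ξ * Pp X.ν X.π X.q g ζ = P at m1 m2 a1 a2
    generalize dist (g⁻¹ • ξ) (g⁻¹ • ζ) = D at m1 m2 hD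
    generalize dist ξ ζ = d at m1 m2 hd
    generalize X.q ^ X.ν g = t at m1 m2 a1 a2 ht
    constructor
    · have b1 : D * t ≤ X.C * d := by
        refine le_of_mul_le_mul_left (a := t) ?_ ht
        have := mul_le_mul_of_nonneg_left a1 hD
        have e1 : t * (D * t) = D * (t * t) := by ring
        have e2 : t * (X.C * d) = X.C * (t * d) := by ring
        linarith
      exact b1.trans (mul_le_mul_of_nonneg_right (by linarith) hd)
    · have b1 : d ≤ X.C * (X.C + 1) ^ 2 * (D * t) := by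
        refine le_of_mul_le_mul_left (a := t) ?_ ht
        have := mul_le_mul_of_nonneg_left (mul_le_mul_of_nonneg_left a2 hD) hC.le
        have e1 : t * (X.C * (X.C + 1) ^ 2 * (D * t)) =
            X.C * (D * ((X.C + 1) * t * ((X.C + 1) * t))) := by ring
        linarith
      exact b1.trans (mul_le_mul_of_nonneg_right hL1 (by positivity))
  · have a1 := hs g p p ξ hp (by rw [dist_self]; positivity) (by rwa [one_mul, dist_comm])
    rw [dist_comm] at a1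
    have a2 : ε⁻¹ * ε ≤ L * dist (g⁻¹ • ξ) (g⁻¹ • p) :=
      mul_le_mul hL2 a1 hε.le (by linarith)
    rwa [inv_mul_cancel₀ hε.ne'] at a2

end Vale.Agent.P198
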